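import Vale.Agent.Lib.P100.Mit

namespace Vale.Agent.Results.P100.MitidieriRegion

open Vale.Agent.Lib.P100

/-- Nonexistence of positive entire solutions of the Henon-Lane-Emden system with arbitrary real
weights in the Mitidieri type region: with `C_u = p (B/2 + 1) + (A/2 + 1)` and
`C_v = q (A/2 + 1) + (B/2 + 1)`, no solution exists in dimension `n ≥ 3` as soon as `C_u > 0` and
`(n-2)/2 * (p q - 1) < C_u`, or the same holds for `C_v`. No boundedness, decay or regularity at
the origin beyond continuity is assumed. -/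
theorem result {n : ℕ} (hn : 3 ≤ n) {A B p q : ℝ} (hp : 0 < p) (hq : 0 < q)
    (hreg : (0 < p * (B / 2 + 1) + (A / 2 + 1) ∧
        ((n : ℝ) - 2) / 2 * (p * q - 1) < p * (B / 2 + 1) + (A / 2 + 1)) ∨
      (0 < q * (A / 2 + 1) + (B / 2 + 1) ∧
        ((n : ℝ) - 2) / 2 * (p * q - 1) < q * (A / 2 + 1) + (B / 2 + 1)))
    (u v : (Fin n → ℝ) → ℝ) : ¬ IsSol A B p q u v :=
  fun s => no_sol_mit hn hp hq hreg s

end Vale.Agent.Results.P100.MitidieriRegion
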