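import Vale.Agent.Lib.P100.Core

namespace Vale.Agent.Results.P100.NoSolEasy

open Vale.Agent.Lib.P100

/-- Nonexistence of positive entire solutions of the Henon-Lane-Emden system
`-Δu = |x|^A v^p`, `-Δv = |x|^B u^q` on `ℝⁿ \ {0}` when `n = 2`, or `A ≤ -2`, or `B ≤ -2`
(for all real `p, q`; no subcriticality needed). -/
theorem result {n : ℕ} (hn : 2 ≤ n) {A B p q : ℝ} (hcase : n = 2 ∨ A ≤ -2 ∨ B ≤ -2)
    (u v : (Fin n → ℝ) → ℝ) : ¬ IsSol A B p q u v :=
  fun sol => no_sol hn hcase sol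

end Vale.Agent.Results.P100.NoSolEasy
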