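import Vale.Agent.Lib.P100.Mit

namespace Vale.Agent.Results.P100.UnionRegion

open Vale.Agent.Lib.P100

/-- Nonexistence of positive entire solutions of the Henon-Lane-Emden system for all real weights
and `p, q > 0` as soon as `n = 2`, or `A ≤ -2`, or `B ≤ -2`, or
`(n-2) (p q - 1) < max (p (B + 2) + A + 2) (q (A + 2) + B + 2)`. -/
theorem result {n : ℕ} (hn : 2 ≤ n) {A B p q : ℝ} (hp : 0 < p) (hq : 0 < q)
    (hreg : n = 2 ∨ A ≤ -2 ∨ B ≤ -2 ∨
      ((n : ℝ) - 2) * (p * q - 1) < max (p * (B + 2) + (A + 2)) (q * (A + 2) + (B + 2)))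
    (u v : (Fin n → ℝ) → ℝ) : ¬ IsSol A B p q u v := by
  intro s
  by_cases h1 : n = 2
  · exact no_sol hn (Or.inl h1) s
  by_cases h2 : A ≤ -2
  · exact no_sol hn (Or.inr (Or.inl h2)) s
  by_cases h3 : B ≤ -2
  · exact no_sol hn (Or.inr (Or.inr h3)) s
  have hm : ((n : ℝ) - 2) * (p * q - 1) < max (p * (B + 2) + (A + 2)) (q * (A + 2) + (B + 2)) := by
    rcases hreg with h | h | h | h
    · exact absurd h h1
    · exact absurd h h2
    · exact absurd h h3
    · exact h
  have hn3 : 3 ≤ n := by omega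
  push Not at h2 h3
  have ha : 0 < A + 2 := by linarith
  have hb : 0 < B + 2 := by linarith
  refine no_sol_mit hn3 hp hq ?_ s
  rcases lt_max_iff.1 hm with h | h
  · left
    have hpb := mul_pos hp hb
    constructor
    · nlinarith
    · nlinarith
  · right
    have hqa := mul_pos hq ha
    constructor
    · nlinarith
    · nlinarith

end Vale.Agent.Results.P100.UnionRegion
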